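import Vale.Agent.P365.Main

namespace Vale.Agent.Results.P365.Cauchy2D

open MeasureTheory ProbabilityTheory

/-- The eigenvalue equation `Σ_{|q - p|₁ = 1} ψ(q) + V(p) ψ(p) = E ψ(p)` at every site of `ℤ²`. -/
def EigenEq (V : ℤ × ℤ → ℝ) (E : ℝ) (ψ : ℤ × ℤ → ℂ) : Prop :=
  ∀ p : ℤ × ℤ, ψ (p.1 + 1, p.2) + ψ (p.1 - 1, p.2) + ψ (p.1, p.2 + 1) + ψ (p.1, p.2 - 1)
    + (V p : ℂ) * ψ p = (E : ℂ) * ψ p

/-- The Hilbert space `ℓ²(ℤ²)`. -/
abbrev Ell2 : Type := lp (fun _ : ℤ × ℤ => ℂ) 2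

/-- The square summable solutions of the eigenvalue equation for some real energy. -/
def eigenvectors (V : ℤ × ℤ → ℝ) : Set Ell2 := {ψ | ∃ E : ℝ, EigenEq V E ψ}

/-- Pure point spectrum: the eigenvectors span a dense subspace of `ℓ²(ℤ²)`. -/
def PurePoint (V : ℤ × ℤ → ℝ) : Prop :=
  Dense ((Submodule.span ℂ (eigenvectors V) : Submodule ℂ Ell2) : Set Ell2)

/-- Independent standard Cauchy variables indexed by `ℤ²`. -/
noncomputable def cauchyField : Measure (ℤ × ℤ → ℝ) :=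
  Measure.infinitePi fun _ : ℤ × ℤ => cauchyMeasure 0 1

/-- Independent variables, uniform on `[-1, 1]`, indexed by `ℤ²`. -/
noncomputable def uniformField : Measure (ℤ × ℤ → ℝ) :=
  Measure.infinitePi fun _ : ℤ × ℤ => cond volume (Set.Icc (-1 : ℝ) 1)

theorem result :
    (∀ γ : ℝ, 0 < γ → ∀ W : ℤ × ℤ → ℝ,
      ∀ᵐ c ∂cauchyField, PurePoint fun p => W p + γ * c p) ∧
    (∀ lam γ : ℝ, 0 < γ →
      ∀ᵐ q ∂(uniformField.prod cauchyField), PurePoint fun p => lam * q.1 p + γ * q.2 p) := by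
  have : IsProbabilityMeasure (cond volume (Set.Icc (-1 : ℝ) 1)) :=
    cond_isProbabilityMeasure_of_finite (by norm_num) (by simp)
  exact ⟨fun γ hγ W => Vale.Agent.P365.main_det hγ W,
    fun lam γ hγ => Vale.Agent.P365.main_rand hγ lam
      (Measure.infinitePi fun _ : ℤ × ℤ => cond volume (Set.Icc (-1 : ℝ) 1))⟩

end Vale.Agent.Results.P365.Cauchy2D
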